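import Vale.Agent.P007.FinalComposite

namespace Vale.Agent.Results.P007.ClosedNullSet

open Vale.Agent.P007 MeasureTheory Filter Topology

/-- The union of the orbits of the packet of the order `O` of the field `K`, whose real embeddings
are ordered by `σ`: all points `g SL_n(ℤ)` whose lattice `g ℤ^n` equals `c · w · a · σ(I)`, where `I`
is an invertible fractional `O`-ideal (`I`, `J` are `O`-stable additive subgroups of `K` with
`I J = O`), `w = diag(ε_j)` is a sign matrix, `a = diag(exp u_j)` with `∑ u_j = 0`, and `c > 0`. -/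
def packetOf {n : ℕ} {K : Type} [Field K] (σ : Fin n ≃ (K →+* ℝ)) (O : Subring K) :
    Set (LatX n) :=
  {x | ∃ (g : SLR n) (I J : Submodule ℤ K) (c : ℝ) (ε u : Fin n → ℝ),
      x = (g : LatX n) ∧ (∀ a ∈ O, ∀ y ∈ I, a * y ∈ I) ∧ (∀ a ∈ O, ∀ y ∈ J, a * y ∈ J) ∧
      (∀ y : K, y ∈ I * J ↔ y ∈ O) ∧ 0 < c ∧ (∀ j, ε j = 1 ∨ ε j = -1) ∧ ∑ j, u j = 0 ∧
      ∀ v : Fin n → ℝ, v ∈ latticeOf g ↔ ∃ y ∈ I, ∀ j, v j = c * ε j * Real.exp (u j) * σ j y}

lemma packet_eq {n : ℕ} (d : OrderDatum n) : d.packet = packetOf d.σ d.O := by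
  ext x
  constructor
  · rintro ⟨g, I, c, ε, u, hx, ⟨hI, J, hJ, hIJ⟩, hc, hε, hu, hL⟩
    refine ⟨g, I, J, c, ε, u, hx, hI, hJ, hIJ, hc, hε, hu, fun v => ?_⟩
    rw [hL]
    rfl
  · rintro ⟨g, I, J, c, ε, u, hx, hI, hJ, hIJ, hc, hε, hu, hL⟩
    refine ⟨g, I, c, ε, u, hx, ⟨hI, J, hJ, hIJ⟩, hc, hε, hu, ?_⟩
    ext v
    rw [hL]
    rfl

/-- Every composite degree `n ≥ 4`: one totally real field `K` of degree `n`, one ordering `σ` of its
real embeddings, orders `O_i` of `K` with `ℤ`-bases `b_i` and discriminants tending to infinity, and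
one closed subset `Z` of the space of lattices which contains all the (nonempty) packets and is a
null set for every invariant probability measure `m`.  Consequently one test function separates `m`
from all measures carried by the packets, and no subsequence of such measures converges to `m`. -/
theorem result (n : ℕ) (hn : 4 ≤ n) (hc : ¬ n.Prime) :
    ∃ (K : Type) (_ : Field K) (_ : NumberField K) (σ : Fin n ≃ (K →+* ℝ))
      (O : ℕ → Subring K) (b : ℕ → Fin n → K) (Z : Set (LatX n)),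
      Module.finrank ℚ K = n ∧
      (∀ i, LinearIndependent ℤ (b i) ∧
        ∀ x : K, x ∈ O i ↔ x ∈ Submodule.span ℤ (Set.range (b i))) ∧
      Tendsto (fun i => |Algebra.discr ℚ (b i)|) atTop atTop ∧
      IsClosed Z ∧
      (∀ i, (packetOf σ (O i)).Nonempty ∧ packetOf σ (O i) ⊆ Z) ∧
      ∀ m : Measure (LatX n), IsProbabilityMeasure m → SMulInvariantMeasure (SLR n) (LatX n) m →
        m Z = 0 ∧
        ∃ f : C(LatX n, ℝ), HasCompactSupport f ∧ (∀ x, 0 ≤ f x ∧ f x ≤ 1) ∧
          1 / 2 < ∫ x, f x ∂m ∧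
          ∀ μ : ℕ → Measure (LatX n), (∀ i, μ i (packetOf σ (O i))ᶜ = 0) →
            (∀ i, ∫ x, f x ∂(μ i) = 0) ∧
            ∀ φ : ℕ → ℕ, StrictMono φ →
              ¬ Tendsto (fun i => ∫ x, f x ∂(μ (φ i))) atTop (𝓝 (∫ x, f x ∂m)) := by
  obtain ⟨a, b, ha, hb, rfl⟩ := exists_factor hn hc
  have : Fact (2 ≤ a) := ⟨ha⟩
  have : Fact (2 ≤ b) := ⟨hb⟩
  have hpos : 0 < a * b := by omega
  have hirr : ∀ j, Irrational (σC a b j (γC a b)) := by
    intro j
    rintro ⟨q, hq⟩
    apply γC_not_rat a b q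
    apply (σC a b j).injective
    rw [← hq]
    simp
  have hsub : ∀ i, packetOf (σC a b) (datumC a b i).O ⊆
      bigStab (a * b) (rootSetIrr (a * b) (4 * (a : ℝ) + 2)) := by
    intro i
    have h1 := packet_subset_stab (datumC a b i) (γC a b) (γC_mem a b _)
    rw [packet_eq] at h1
    exact h1.trans (stab_subset_bigStab (fun j => emb_γC_bound a b _) hirr)
  refine ⟨KC a b, inferInstance, inferInstance, σC a b, fun i => (datumC a b i).O,
    fun i => (datumC a b i).b, bigStab (a * b) (rootSetIrr (a * b) (4 * (a : ℝ) + 2)),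
    finrank_KC a b, fun i => ⟨(datumC a b i).b_indep, (datumC a b i).b_span⟩,
    tendsto_disc_datumC a b, isClosed_bigStab _, fun i => ⟨?_, hsub i⟩, ?_⟩
  · have h := packet_nonempty (datumC a b i)
    rw [packet_eq] at h
    exact h
  · intro m hm1 hm2
    have hZ : m (bigStab (a * b) (rootSetIrr (a * b) (4 * (a : ℝ) + 2))) = 0 :=
      measure_bigStab m ⟨0, hpos⟩ _ (fun r hr => irrational_of_mem_rootSetIrr hr)
    obtain ⟨f, hfc, hf01, hf0, hfm⟩ := exists_test m (isClosed_bigStab (n := a * b)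
      (rootSetIrr (a * b) (4 * (a : ℝ) + 2))) hZ
    refine ⟨hZ, f, hfc, fun x => hf01 x, hfm, fun μ hμ => ?_⟩
    have h0 : ∀ i, ∫ x, f x ∂(μ i) = 0 := by
      intro i
      apply integral_eq_zero_of_ae
      have hs : {x | ¬ (f x = (0 : LatX (a * b) → ℝ) x)} ⊆
          (packetOf (σC a b) (datumC a b i).O)ᶜ := by
        intro x hx hxp
        exact hx (hf0 x (hsub i hxp))
      exact measure_mono_null hs (hμ i)
    refine ⟨h0, fun φ _ hlim => ?_⟩
    simp only [h0] at hlim
    have := tendsto_nhds_unique hlim tendsto_const_nhds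
    rw [this] at hfm
    norm_num at hfm

end Vale.Agent.Results.P007.ClosedNullSet
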