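import Vale.Agent.P007.FinalComposite

namespace Vale.Agent.Results.P007.CompositeCounterexample

open Vale.Agent.P007 MeasureTheory Filter

/-- Every composite degree `n ≥ 4`: a sequence of orders in a totally real field of degree `n`, with
discriminants tending to infinity, whose packets stay away from every invariant probability
measure: one compactly supported continuous test function has integral `> 1/2` for the invariant
measure and integral `0` for every measure carried by any of the packets. -/
theorem result (n : ℕ) (hn : 4 ≤ n) (hc : ¬ n.Prime) :
    ∃ d : ℕ → OrderDatum n,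
      Tendsto (fun i => |(d i).disc|) atTop atTop ∧
      (∀ i, (d i).packet.Nonempty) ∧
      ∀ m : Measure (LatX n), IsInvariantProb m →
        ∃ f : C(LatX n, ℝ), HasCompactSupport f ∧ (∀ x, 0 ≤ f x ∧ f x ≤ 1) ∧
          1 / 2 < ∫ x, f x ∂m ∧
          ∀ i, ∀ μ : Measure (LatX n), μ (d i).packetᶜ = 0 → ∫ x, f x ∂μ = 0 :=
  composite_counterexample n hn hc

end Vale.Agent.Results.P007.CompositeCounterexample
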