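import Vale.Agent.P007.Final

namespace Vale.Agent.Results.P007.NecessaryCondition

open Vale.Agent.P007 MeasureTheory Filter Topology

/-- Every degree: if measures carried by the packets of the orders `O_i` converge vaguely to an
invariant probability measure, then for every bound `C`, for all large `i`, every irrational
element of `O_i` has a conjugate of absolute value `> C`. -/
theorem result (n : ℕ) (d : ℕ → OrderDatum n)
    (m : Measure (LatX n)) (hm : IsInvariantProb m)
    (μ : ℕ → Measure (LatX n)) (hμ : ∀ i, μ i (d i).packetᶜ = 0)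
    (hconv : ∀ f : C(LatX n, ℝ), HasCompactSupport f →
      Tendsto (fun i => ∫ x, f x ∂(μ i)) atTop (𝓝 (∫ x, f x ∂m)))
    (C : ℝ) :
    ∀ᶠ i in atTop, ∀ γ ∈ (d i).O, (∀ q : ℚ, γ ≠ (q : (d i).K)) → ∃ j, C < |(d i).σ j γ| := by
  haveI := hm.1
  haveI := hm.2
  exact necessary_condition n d m μ hμ hconv C

end Vale.Agent.Results.P007.NecessaryCondition
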