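import Vale.Agent.P007.Final

namespace Vale.Agent.Results.P007.QuarticCounterexample

open Vale.Agent.P007 MeasureTheory Filter

/-- Degree four: a sequence of orders in a totally real quartic field, with discriminants tending
to infinity, whose packets stay away from every invariant probability measure: one compactly
supported continuous test function has integral `> 1/2` for the invariant measure and integral `0`
for every measure carried by any of the packets. -/
theorem result :
    ∃ d : ℕ → OrderDatum 4,
      Tendsto (fun i => |(d i).disc|) atTop atTop ∧
      (∀ i, (d i).packet.Nonempty) ∧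
      ∀ m : Measure (LatX 4), IsInvariantProb m →
        ∃ f : C(LatX 4, ℝ), HasCompactSupport f ∧ (∀ x, 0 ≤ f x ∧ f x ≤ 1) ∧
          1 / 2 < ∫ x, f x ∂m ∧
          ∀ i, ∀ μ : Measure (LatX 4), μ (d i).packetᶜ = 0 → ∫ x, f x ∂μ = 0 := by
  obtain ⟨d, h1, h2, h3⟩ := quartic_counterexample
  refine ⟨d, h1, h2, fun m hm => ?_⟩
  haveI := hm.1
  haveI := hm.2
  exact h3 m

end Vale.Agent.Results.P007.QuarticCounterexample
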